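import Vale.Agent.P245.QC.Iface
import Vale.Agent.P227.PL

/-! P245, QC: row BM (helper110) -/

open MeasureTheory Set Filter Topology
open scoped ENNReal ContDiff

namespace Vale.Agent.P245.QC.H110

open Vale.Agent.P245 Vale.Agent.P245.QC

theorem dens {n : ℕ} {ρ : EuclideanSpace ℝ (Fin n) → ℝ} (h0 : ∀ x, 0 ≤ ρ x)
    (hc : ConcaveOn ℝ {x | 0 < ρ x} (fun x => Real.log (ρ x)))
    {A B C : Set (EuclideanSpace ℝ (Fin n))} {s : ℝ} (hs0 : 0 < s) (hs1 : s < 1)
    (hABC : ∀ x ∈ A, ∀ y ∈ B, (1 - s) • x + s • y ∈ C) (x y : EuclideanSpace ℝ (Fin n)) :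
    (A.indicator (fun x => ENNReal.ofReal (ρ x)) x) ^ (1 - s) *
      (B.indicator (fun x => ENNReal.ofReal (ρ x)) y) ^ s ≤
      C.indicator (fun x => ENNReal.ofReal (ρ x)) ((1 - s) • x + s • y) := by
  have hs1' : 0 < 1 - s := by linarith
  by_cases hx : x ∈ A
  swap
  · rw [indicator_of_notMem hx, ENNReal.zero_rpow_of_pos hs1', zero_mul]; exact zero_le
  by_cases hy : y ∈ B
  swap
  · rw [indicator_of_notMem hy, ENNReal.zero_rpow_of_pos hs0, mul_zero]; exact zero_le
  rw [indicator_of_mem hx, indicator_of_mem hy, indicator_of_mem (hABC x hx y hy)]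
  rcases eq_or_lt_of_le (h0 x) with hx0 | hx0
  · rw [← hx0, ENNReal.ofReal_zero, ENNReal.zero_rpow_of_pos hs1', zero_mul]; exact zero_le
  rcases eq_or_lt_of_le (h0 y) with hy0 | hy0
  · rw [← hy0, ENNReal.ofReal_zero, ENNReal.zero_rpow_of_pos hs0, mul_zero]; exact zero_le
  rw [ENNReal.ofReal_rpow_of_pos hx0, ENNReal.ofReal_rpow_of_pos hy0,
    ← ENNReal.ofReal_mul (Real.rpow_nonneg hx0.le _)]
  apply ENNReal.ofReal_le_ofReal
  have hz : 0 < ρ ((1 - s) • x + s • y) := hc.1 hx0 hy0 hs1'.le hs0.le (by ring)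
  have h := hc.2 hx0 hy0 hs1'.le hs0.le (by ring : (1 - s) + s = 1)
  simp only [smul_eq_mul] at h
  rw [Real.rpow_def_of_pos hx0, Real.rpow_def_of_pos hy0, ← Real.exp_add,
    ← Real.exp_log hz]
  apply Real.exp_le_exp.2
  linarith

/-- row BM -/
theorem bm : StBM := by
  intro n μ _ hμ A B C hA hB hC s hs0 hs1 hABC
  obtain ⟨ρ, hm, h0, hc, rfl⟩ := hμ
  set μ := (volume : Measure (EuclideanSpace ℝ (Fin n))).withDensity
      (fun x => ENNReal.ofReal (ρ x)) with hμ
  have hs1' : 0 < 1 - s := by linarith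
  have hvp := PiLp.volume_preserving_toLp (Fin n)
  have hmo : Measurable (fun x : EuclideanSpace ℝ (Fin n) => ENNReal.ofReal (ρ x)) :=
    hm.ennreal_ofReal
  have key : ∀ S : Set (EuclideanSpace ℝ (Fin n)), MeasurableSet S →
      ∫⁻ x : Fin n → ℝ, S.indicator (fun x => ENNReal.ofReal (ρ x)) (WithLp.toLp 2 x) = μ S := by
    intro S hS
    rw [hvp.lintegral_comp (hmo.indicator hS), lintegral_indicator hS, hμ,
      withDensity_apply _ hS]
  have hpl := Vale.Agent.P227.pl_pi hs1' hs0 (by ring : (1 - s) + s = 1) n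
    (fun x => A.indicator (fun x => ENNReal.ofReal (ρ x)) (WithLp.toLp 2 x))
    (fun x => B.indicator (fun x => ENNReal.ofReal (ρ x)) (WithLp.toLp 2 x))
    (fun x => C.indicator (fun x => ENNReal.ofReal (ρ x)) (WithLp.toLp 2 x))
    ((hmo.indicator hA).comp hvp.measurable) ((hmo.indicator hB).comp hvp.measurable)
    ((hmo.indicator hC).comp hvp.measurable) (by
      intro x y
      have h := dens h0 hc hs0 hs1 hABC (WithLp.toLp 2 x) (WithLp.toLp 2 y)
      simpa using h)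
  rw [key A hA, key B hB, key C hC] at hpl
  have := ENNReal.toReal_mono (measure_ne_top μ C) hpl
  rw [ENNReal.toReal_mul, ← ENNReal.toReal_rpow, ← ENNReal.toReal_rpow] at this
  exact this

end Vale.Agent.P245.QC.H110
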