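import Vale.Agent.P245.QC.Iface

/-! P245, QC: row ISO (insurance copy, helper110) -/

open MeasureTheory Set Filter Topology
open scoped ENNReal ContDiff

namespace Vale.Agent.P245.QC.H110

open Vale.Agent.P245 Vale.Agent.P245.QC

/-- distance to a convex set is convex -/
theorem infDist_convex {E : Type*} [NormedAddCommGroup E] [NormedSpace ℝ E] {A : Set E}
    (hA : Convex ℝ A) (hne : A.Nonempty) : ConvexOn ℝ univ (fun x => Metric.infDist x A) := by
  refine ⟨convex_univ, ?_⟩
  intro x _ y _ a b ha hb hab
  simp only [smul_eq_mul]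
  refine le_of_forall_pos_le_add fun ε hε => ?_
  obtain ⟨u, hu, hxu⟩ := (Metric.infDist_lt_iff hne).1
    (show Metric.infDist x A < Metric.infDist x A + ε by linarith)
  obtain ⟨v, hv, hyv⟩ := (Metric.infDist_lt_iff hne).1
    (show Metric.infDist y A < Metric.infDist y A + ε by linarith)
  have hw : a • u + b • v ∈ A := hA hu hv ha hb hab
  have h1 : Metric.infDist (a • x + b • y) A ≤ dist (a • x + b • y) (a • u + b • v) :=
    Metric.infDist_le_dist_of_mem hw
  have h2 : dist (a • x + b • y) (a • u + b • v) ≤ a * dist x u + b * dist y v := by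
    rw [dist_eq_norm, dist_eq_norm, dist_eq_norm]
    have : a • x + b • y - (a • u + b • v) = a • (x - u) + b • (y - v) := by
      rw [smul_sub, smul_sub]; abel
    rw [this]
    refine (norm_add_le _ _).trans ?_
    rw [norm_smul, norm_smul, Real.norm_of_nonneg ha, Real.norm_of_nonneg hb]
  have h3 : a * dist x u ≤ a * (Metric.infDist x A + ε) :=
    mul_le_mul_of_nonneg_left hxu.le ha
  have h4 : b * dist y v ≤ b * (Metric.infDist y A + ε) :=
    mul_le_mul_of_nonneg_left hyv.le hb
  have : a * (Metric.infDist x A + ε) + b * (Metric.infDist y A + ε)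
      = a * Metric.infDist x A + b * Metric.infDist y A + ε := by
    linear_combination ε * hab
  linarith

theorem num {p s : ℝ} (hp : 0 < p) (hp2 : p ≤ 1 / 2) (hs : 0 ≤ s) :
    p * (1 + s * Real.log (1 / p) / 2) ≤ p ^ (1 - s) * (3 / 4 : ℝ) ^ s := by
  have hL : Real.log 2 ≤ Real.log (1 / p) := by
    apply Real.log_le_log (by norm_num)
    rw [le_div_iff₀ hp]; linarith
  have h43 : Real.log (4 / 3) ≤ Real.log 2 / 2 := by
    have : Real.log (4 / 3) * 2 ≤ Real.log 2 := by
      have h := Real.log_pow (4 / 3 : ℝ) 2
      push_cast at h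
      rw [mul_comm, ← h]
      exact Real.log_le_log (by norm_num) (by norm_num)
    linarith
  have e1 : p ^ (1 - s) * (3 / 4 : ℝ) ^ s
      = p * Real.exp (s * (Real.log (1 / p) - Real.log (4 / 3))) := by
    rw [Real.rpow_def_of_pos hp, Real.rpow_def_of_pos (by norm_num : (0 : ℝ) < 3 / 4)]
    nth_rw 2 [← Real.exp_log hp]
    rw [← Real.exp_add, ← Real.exp_add]
    congr 1
    have a1 : Real.log (1 / p) = - Real.log p := by rw [one_div, Real.log_inv]
    have a2 : Real.log (3 / 4 : ℝ) = - Real.log (4 / 3) := by
      rw [← Real.log_inv]; norm_num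
    rw [a1, a2]; ring
  rw [e1]
  apply mul_le_mul_of_nonneg_left _ hp.le
  have h1 := Real.add_one_le_exp (s * (Real.log (1 / p) - Real.log (4 / 3)))
  have h2 : s * Real.log (1 / p) / 2 ≤ s * (Real.log (1 / p) - Real.log (4 / 3)) := by
    have : Real.log (1 / p) / 2 ≤ Real.log (1 / p) - Real.log (4 / 3) := by linarith
    calc s * Real.log (1 / p) / 2 = s * (Real.log (1 / p) / 2) := by ring
      _ ≤ _ := mul_le_mul_of_nonneg_left this hs
  linarith

/-- row ISO -/
theorem iso (hBM : StBM) : StIso := by
  intro n μ _ hμ K hK hCC hint A hA hAc hp0 hp2 r hr0 hr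
  set p := μ.real A with hpdef
  set L := Real.log (1 / p) with hL
  have hne : A.Nonempty := by
    by_contra h
    rw [not_nonempty_iff_eq_empty] at h
    rw [hpdef, h] at hp0
    simp at hp0
  have hlog2 : Real.log 2 ≤ L := by
    apply Real.log_le_log (by norm_num)
    rw [le_div_iff₀ hp0]; linarith
  have hlog2p : 0 < Real.log 2 := Real.log_pos (by norm_num)
  have hLpos : 0 < L := by linarith
  set F : EuclideanSpace ℝ (Fin n) → ℝ := fun x => Metric.infDist x A with hF
  have hF1 : LipschitzWith 1 F := Metric.lipschitz_infDist_pt A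
  have hFc : ConvexOn ℝ univ F := infDist_convex hA hne
  have hF0 : ∀ x, 0 ≤ F x := fun x => Metric.infDist_nonneg
  have hFA : ∀ x ∈ A, F x = 0 := fun x hx => Metric.infDist_zero_of_mem hx
  have hFi : Integrable F μ := hint F hF1
  set D := ∫ y, F y ∂μ with hD
  have hD0 : 0 ≤ D := integral_nonneg hF0
  have hAm : MeasurableSet A := hAc.measurableSet
  -- lower bound of the Laplace transform
  have hlow : ∀ t : ℝ, 0 ≤ t → p * Real.exp (t * D) ≤ Real.exp (K * t ^ 2) := by
    intro t ht
    refine le_trans ?_ (hCC F hF1 hFc t ht)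
    have hi : Integrable (fun x => Real.exp (-t * (F x - D))) μ := by
      refine Integrable.mono' (integrable_const (Real.exp (t * D))) ?_ ?_
      · exact (Real.measurable_exp.comp
          ((hF1.continuous.measurable.sub_const D).const_mul (-t))).aestronglyMeasurable
      · filter_upwards with x
        rw [Real.norm_of_nonneg (Real.exp_pos _).le]
        apply Real.exp_le_exp.2
        have := mul_nonneg ht (hF0 x)
        linarith [this, show -t * (F x - D) = t * D - t * F x by ring]
    calc p * Real.exp (t * D) = ∫ x in A, Real.exp (t * D) ∂μ := by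
          rw [setIntegral_const, smul_eq_mul]
      _ = ∫ x in A, Real.exp (-t * (F x - D)) ∂μ := by
          apply setIntegral_congr_fun hAm
          intro x hx
          simp only [hFA x hx]
          congr 1; ring
      _ ≤ ∫ x, Real.exp (-t * (F x - D)) ∂μ :=
          setIntegral_le_integral hi (Eventually.of_forall fun x => (Real.exp_pos _).le)
  -- D ≤ 2 √(K L)
  have hDle : D ≤ 2 * √(K * L) := by
    have h := hlow (D / (2 * K)) (by positivity)
    have h2 : Real.log (p * Real.exp (D / (2 * K) * D)) ≤ K * (D / (2 * K)) ^ 2 := by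
      have := Real.log_le_log (by positivity) h
      rwa [Real.log_exp] at this
    rw [Real.log_mul hp0.ne' (Real.exp_pos _).ne', Real.log_exp] at h2
    have hLp : L = - Real.log p := by rw [hL, one_div, Real.log_inv]
    have h3 : D ^ 2 / (4 * K) ≤ L := by
      rw [hLp]
      have e1 : D / (2 * K) * D - K * (D / (2 * K)) ^ 2 = D ^ 2 / (4 * K) := by
        field_simp; ring
      linarith
    have h4 : D ^ 2 ≤ 4 * (K * L) := by
      rw [div_le_iff₀ (by positivity)] at h3; linarith
    have h5 : D ≤ √(4 * (K * L)) := by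
      apply Real.le_sqrt_of_sq_le h4
    refine h5.trans (le_of_eq ?_)
    rw [Real.sqrt_mul (by norm_num), show (4 : ℝ) = 2 ^ 2 by norm_num,
      Real.sqrt_sq (by norm_num)]
  set R := 8 * √(K * L) with hR
  have hKL : 0 < √(K * L) := Real.sqrt_pos.2 (by positivity)
  have hRpos : 0 < R := by positivity
  have hrR : r ≤ R := by
    refine hr.trans ?_
    have : √(K * Real.log 2) ≤ √(K * L) := Real.sqrt_le_sqrt (by gcongr)
    rw [hR]; linarith
  set B := Metric.cthickening R A with hB
  have hBm : MeasurableSet B := Metric.isClosed_cthickening.measurableSet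
  -- Markov
  have hBge : 3 / 4 ≤ μ.real B := by
    have hM := mul_meas_ge_le_integral_of_nonneg (μ := μ) (f := F)
      (Eventually.of_forall hF0) hFi R
    have h1 : μ.real {x | R ≤ F x} ≤ 1 / 4 := by
      have : R * μ.real {x | R ≤ F x} ≤ R * (1 / 4) := by
        refine hM.trans (hDle.trans (le_of_eq ?_))
        rw [hR]; ring
      exact le_of_mul_le_mul_left this hRpos
    have h2 : Bᶜ ⊆ {x | R ≤ F x} := by
      intro x hx
      rw [mem_compl_iff, hB, Metric.mem_cthickening_iff] at hx
      simp only [not_le] at hx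
      show R ≤ F x
      by_contra hcon
      push Not at hcon
      apply absurd hx
      rw [not_lt]
      rw [← ENNReal.ofReal_toReal (Metric.infEDist_ne_top hne)]
      exact ENNReal.ofReal_le_ofReal hcon.le
    have h3 : μ.real Bᶜ ≤ 1 / 4 := (measureReal_mono h2).trans h1
    rw [measureReal_compl hBm] at h3
    simp only [probReal_univ] at h3
    linarith
  have hApos : 0 < p := hp0
  set s := r / R with hs
  have hs0 : 0 ≤ s := by positivity
  have hs1 : s ≤ 1 := by rw [hs, div_le_one hRpos]; exact hrR
  have hsR : s * R = r := by rw [hs]; field_simp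
  have hterm : r * √L / (16 * √K) = s * L / 2 := by
    rw [← hsR, hR, Real.sqrt_mul hK.le]
    have hk : √K ≠ 0 := (Real.sqrt_pos.2 hK).ne'
    have hl : √L * √L = L := Real.mul_self_sqrt hLpos.le
    field_simp
    nlinarith [hl]
  rw [hterm]
  have hnum := num hp0 hp2 hs0
  refine hnum.trans ?_
  rcases eq_or_lt_of_le hs0 with h0 | h0
  · rw [← h0]
    simp only [sub_zero, Real.rpow_one, Real.rpow_zero, mul_one]
    exact measureReal_mono (Metric.self_subset_cthickening A)
  rcases eq_or_lt_of_le hs1 with h1 | h1
  · rw [h1]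
    simp only [sub_self, Real.rpow_zero, one_mul, Real.rpow_one]
    have : r = R := by rw [← hsR, h1, one_mul]
    rw [this]
    exact hBge
  · have hbm := hBM n μ hμ A B (Metric.cthickening r A) hAm hBm
      Metric.isClosed_cthickening.measurableSet s h0 h1 ?_
    · refine le_trans ?_ hbm
      apply mul_le_mul_of_nonneg_left _ (Real.rpow_nonneg hp0.le _)
      exact Real.rpow_le_rpow (by norm_num) hBge hs0
    · intro x hx y hy
      have hy' : F y ≤ R := by
        rw [hB, Metric.mem_cthickening_iff] at hy
        simp only [hF, Metric.infDist]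
        exact ENNReal.toReal_le_of_le_ofReal hRpos.le hy
      have hc := hFc.2 (mem_univ x) (mem_univ y) (show (0 : ℝ) ≤ 1 - s by linarith) hs0
        (by ring)
      simp only [smul_eq_mul] at hc
      rw [hFA x hx] at hc
      have : F ((1 - s) • x + s • y) ≤ r := by
        refine hc.trans ?_
        rw [mul_zero, zero_add, ← hsR]
        exact mul_le_mul_of_nonneg_left hy' hs0
      rw [Metric.mem_cthickening_iff, ← ENNReal.ofReal_toReal (Metric.infEDist_ne_top hne)]
      exact ENNReal.ofReal_le_ofReal this

end Vale.Agent.P245.QC.H110
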